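import Vale.Agent.Lib.P329W.Walk

namespace Vale.Agent.Lib.P329W

section Alt

variable {α : Type} [DecidableEq α]

/-- Sign of a Boolean. -/
def sgn : Bool → ℤ
  | false => 1
  | true => -1

/-- The alternating count of the letter `y`, the sign being the parity of the letters marked by `m`
read so far. -/
def alt (y : α) (m : α → Bool) (z : Bool) : List α → ℤ
  | [] => 0
  | a :: w => (if a = y then sgn z else 0) + alt y m (xor z (m a)) w

theorem parity_H {m : α → Bool} {κ : α → ℤ} (h : ∀ a, Odd (κ a) ↔ m a = true) :
    ∀ u : List α, zRun m false u = true → (u.map κ).sum ≠ 0 := by
  have key : ∀ (u : List α) (z : Bool), zRun m z u = xor z (decide (Odd (u.map κ).sum)) := by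
    intro u
    induction u with
    | nil => intro z; simp
    | cons a l ih =>
      intro z
      rw [zRun_cons, ih, List.map_cons, List.sum_cons]
      by_cases h1 : Odd (κ a) <;> by_cases h2 : Odd (l.map κ).sum
      · have h3 : m a = true := (h a).1 h1
        have h4 : ¬ Odd (κ a + (l.map κ).sum) := by
          rw [Int.not_odd_iff_even]
          exact h1.add_odd h2
        simp [h2, h3, h4]
      · have h3 : m a = true := (h a).1 h1
        have h4 : Odd (κ a + (l.map κ).sum) := h1.add_even (Int.not_odd_iff_even.1 h2)
        simp [h2, h3, h4]
      · have h3 : m a = false := by
          cases hm : m a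
          · rfl
          · exact absurd ((h a).2 hm) h1
        have h4 : Odd (κ a + (l.map κ).sum) := (Int.not_odd_iff_even.1 h1).add_odd h2
        simp [h2, h3, h4]
      · have h3 : m a = false := by
          cases hm : m a
          · rfl
          · exact absurd ((h a).2 hm) h1
        have h4 : ¬ Odd (κ a + (l.map κ).sum) := by
          rw [Int.not_odd_iff_even]
          exact (Int.not_odd_iff_even.1 h1).add (Int.not_odd_iff_even.1 h2)
        simp [h2, h3, h4]
  intro u hu h0
  rw [key, h0] at hu
  simp at hu

theorem pos_H {m : α → Bool} {κ : α → ℤ} (h0 : ∀ a, 0 ≤ κ a) (h1 : ∀ a, m a = true → κ a ≠ 0) :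
    ∀ u : List α, zRun m false u = true → (u.map κ).sum ≠ 0 := by
  have hnn : ∀ u : List α, 0 ≤ (u.map κ).sum := by
    intro u
    induction u with
    | nil => simp
    | cons a l ih =>
      rw [List.map_cons, List.sum_cons]
      exact add_nonneg (h0 a) ih
  have key : ∀ (u : List α) (z : Bool), (u.map κ).sum = 0 → zRun m z u = z := by
    intro u
    induction u with
    | nil => intro z _; rfl
    | cons a l ih =>
      intro z hs
      rw [List.map_cons, List.sum_cons] at hs
      have h2 := hnn l
      have h3 := h0 a
      have h4 : κ a = 0 := by omega
      have h5 : (l.map κ).sum = 0 := by omega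
      have h6 : m a = false := by
        cases hm : m a
        · rfl
        · exact absurd h4 (h1 a hm)
      rw [zRun_cons, h6, Bool.xor_false]
      exact ih z h5
  intro u hu hs
  rw [key u false hs] at hu
  simp at hu

/-- Letter counts. -/
theorem count_modDef [Finite α] (y : α) : ModDef (fun w : List α => (w.count y : ℤ)) := by
  have h1 : ModDef (disp (fun _ : α => false) (fun a => if a = y then 1 else 0) false) := by
    apply walk_modDef
    · intro a
      split_ifs <;> simp
    · intro u hu
      have : ∀ (u : List α), zRun (fun _ : α => false) false u = false := by
        intro u
        induction u with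
        | nil => rfl
        | cons a l ih => simpa using ih
      rw [this u] at hu
      simp at hu
  refine h1.congr (fun w => ?_)
  induction w with
  | nil => simp
  | cons a l ih =>
    rw [disp_cons, List.count_cons]
    simp only [Bool.xor_false, if_true, ih]
    by_cases h : a = y
    · simp [h]; ring
    · simp [h]

/-- The alternating counts are definable. -/
theorem alt_modDef [Finite α] (y : α) (m : α → Bool) : ModDef (alt y m false) := by
  set kp : α → ℤ := fun a => if m a = true then 1 else 0 with hkp
  have hkpD : ModDef (disp m kp false) := by
    apply walk_modDef
    · intro a
      simp only [hkp]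
      split_ifs <;> simp
    · apply parity_H
      intro a
      simp only [hkp]
      split_ifs with h
      · simp [h]
      · simp [h]
  cases hy : m y
  · -- `y` is not marked
    set ky : α → ℤ := fun a => if m a = true ∨ a = y then 1 else 0 with hky
    have hkyD : ModDef (disp m ky false) := by
      apply walk_modDef
      · intro a
        simp only [hky]
        split_ifs <;> simp
      · apply pos_H
        · intro a
          simp only [hky]
          split_ifs <;> simp
        · intro a ha
          simp [hky, ha]
    have hid : ∀ (w : List α) (z : Bool),
        alt y m z w = 2 * (disp m ky z w - disp m kp z w) - (w.count y : ℤ) := by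
      intro w
      induction w with
      | nil => intro z; simp [alt]
      | cons a l ih =>
        intro z
        rw [alt, disp_cons, disp_cons, List.count_cons, ih]
        by_cases h : a = y
        · subst h
          cases z <;> simp [hkp, hky, hy, sgn] <;> push_cast <;> ring
        · have h' : ky a = kp a := by
            simp [hky, hkp, h]
          simp only [h, if_false, h', beq_iff_eq]
          push_cast
          split_ifs <;> ring
    refine ((ModDef.const_mul 2 (hkyD.sub hkpD)).sub (count_modDef y)).congr (fun w => ?_)
    rw [hid]
  · -- `y` is marked
    set km : α → ℤ := fun a => if m a = true then (if a = y then -1 else 1) else 0 with hkm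
    have hkmD : ModDef (disp m km false) := by
      apply walk_modDef
      · intro a
        simp only [hkm]
        split_ifs <;> simp
      · apply parity_H
        intro a
        simp only [hkm]
        split_ifs with h h2
        · simp [h]
        · simp [h]
        · simp [h]
    have hid : ∀ (w : List α) (z : Bool),
        alt y m z w = (w.count y : ℤ) + disp m km z w - disp m kp z w := by
      intro w
      induction w with
      | nil => intro z; simp [alt]
      | cons a l ih =>
        intro z
        rw [alt, disp_cons, disp_cons, List.count_cons, ih]
        by_cases h : a = y
        · subst h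
          cases z <;> simp [hkp, hkm, hy, sgn] <;> ring
        · have h' : km a = kp a := by
            simp [hkm, hkp, h]
          simp only [h, if_false, h', beq_iff_eq]
          push_cast
          split_ifs <;> ring
    refine (((count_modDef y).add hkmD).sub hkpD).congr (fun w => ?_)
    rw [hid]

end Alt

end Vale.Agent.Lib.P329W
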