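import Vale.Agent.Lib.P329W.Defs

namespace Vale.Agent.Lib.P329W

open GenExp

variable {α : Type}

/-- `GSH n p`: the set of words satisfying `p` is denoted by an expression of star height at most `n`. -/
def GSH (n : ℕ) (p : List α → Prop) : Prop :=
  ∃ r : GenExp α, r.height ≤ n ∧ ∀ w, w ∈ r.lang ↔ p w

namespace GSH

variable {n : ℕ} {p q : List α → Prop}

theorem congr (h : GSH n p) (e : ∀ w, p w ↔ q w) : GSH n q := by
  obtain ⟨r, hr, hw⟩ := h
  exact ⟨r, hr, fun w => (hw w).trans (e w)⟩

theorem mono {m : ℕ} (h : GSH n p) (hnm : n ≤ m) : GSH m p := by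
  obtain ⟨r, hr, hw⟩ := h
  exact ⟨r, hr.trans hnm, hw⟩

theorem empty (n : ℕ) : GSH n (fun _ : List α => False) :=
  ⟨.zero, by simp [height], fun w => by simp [lang, Language.notMem_zero]⟩

theorem nil (n : ℕ) : GSH n (fun w : List α => w = []) :=
  ⟨.one, by simp [height], fun w => by simp [lang, Language.mem_one]⟩

theorem letter (n : ℕ) (a : α) : GSH n (fun w : List α => w = [a]) :=
  ⟨.letter a, by simp [height], fun w => by
    simp only [lang]
    exact Iff.rfl⟩

theorem or (hp : GSH n p) (hq : GSH n q) : GSH n (fun w => p w ∨ q w) := by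
  obtain ⟨r, hr, hw⟩ := hp
  obtain ⟨s, hs, hw'⟩ := hq
  refine ⟨.plus r s, by simp [height, hr, hs], fun w => ?_⟩
  simp only [lang, Language.mem_add, hw, hw']

theorem not (hp : GSH n p) : GSH n (fun w => ¬ p w) := by
  obtain ⟨r, hr, hw⟩ := hp
  refine ⟨.compl r, by simpa [height] using hr, fun w => ?_⟩
  simp only [lang]
  rw [← hw]
  exact Iff.rfl

theorem true_ (n : ℕ) : GSH n (fun _ : List α => True) :=
  (empty n).not.congr (fun w => by simp)

theorem and (hp : GSH n p) (hq : GSH n q) : GSH n (fun w => p w ∧ q w) :=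
  (hp.not.or hq.not).not.congr (fun w => by tauto)

theorem const (c : Prop) (n : ℕ) : GSH n (fun _ : List α => c) := by
  by_cases h : c
  · exact (true_ n).congr (fun w => by simp [h])
  · exact (empty n).congr (fun w => by simp [h])

theorem mul (hp : GSH n p) (hq : GSH n q) :
    GSH n (fun w => ∃ u v, w = u ++ v ∧ p u ∧ q v) := by
  obtain ⟨r, hr, hw⟩ := hp
  obtain ⟨s, hs, hw'⟩ := hq
  refine ⟨.mul r s, by simp [height, hr, hs], fun w => ?_⟩
  simp only [lang, Language.mem_mul, hw, hw']
  constructor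
  · rintro ⟨a, ha, b, hb, rfl⟩
    exact ⟨a, b, rfl, ha, hb⟩
  · rintro ⟨a, b, rfl, ha, hb⟩
    exact ⟨a, ha, b, hb, rfl⟩

theorem star (hp : GSH n p) :
    GSH (n + 1) (fun w => ∃ L : List (List α), w = L.flatten ∧ ∀ u ∈ L, p u) := by
  obtain ⟨r, hr, hw⟩ := hp
  refine ⟨.star r, by simp [height, hr], fun w => ?_⟩
  simp only [lang, Language.mem_kstar, hw]

/-- Finite unions. -/
theorem exists_ {ι : Type} [Finite ι] {f : ι → List α → Prop} (h : ∀ i, GSH n (f i)) :
    GSH n (fun w => ∃ i, f i w) := by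
  classical
  cases nonempty_fintype ι
  have key : ∀ s : Finset ι, GSH n (fun w => ∃ i ∈ s, f i w) := by
    intro s
    induction s using Finset.induction_on with
    | empty => exact (empty n).congr (fun w => by simp)
    | insert a s _ ih =>
      exact ((h a).or ih).congr (fun w => by simp)
  exact (key Finset.univ).congr (fun w => by simp)

/-- Finite intersections. -/
theorem forall_ {ι : Type} [Finite ι] {f : ι → List α → Prop} (h : ∀ i, GSH n (f i)) :
    GSH n (fun w => ∀ i, f i w) :=
  (exists_ (fun i => (h i).not)).not.congr (fun w => by simp)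

/-- Words containing a given letter. -/
theorem contains (n : ℕ) (c : α) : GSH n (fun w : List α => c ∈ w) := by
  have h := ((true_ (α := α) n).mul (letter n c)).mul (true_ n)
  refine h.congr (fun w => ?_)
  constructor
  · rintro ⟨u, v, rfl, ⟨u', v', rfl, -, rfl⟩, -⟩
    simp
  · intro hc
    obtain ⟨s, t, rfl⟩ := List.append_of_mem hc
    exact ⟨s ++ [c], t, by simp, ⟨s, [c], rfl, trivial, rfl⟩, trivial⟩

end GSH

end Vale.Agent.Lib.P329W
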