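import Mathlib

namespace Vale.Agent.Lib.P329W

/-- Generalized regular expressions over the alphabet `α`: constants `0`, `1`, letters,
union, concatenation, complement and Kleene star. -/
inductive GenExp (α : Type) : Type
  | zero : GenExp α
  | one : GenExp α
  | letter : α → GenExp α
  | plus : GenExp α → GenExp α → GenExp α
  | mul : GenExp α → GenExp α → GenExp α
  | compl : GenExp α → GenExp α
  | star : GenExp α → GenExp α

namespace GenExp

variable {α : Type}

/-- The language denoted by an expression; complement is taken in the set of all words. -/
def lang : GenExp α → Language α
  | zero => 0
  | one => 1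
  | letter a => {[a]}
  | plus P Q => P.lang + Q.lang
  | mul P Q => P.lang * Q.lang
  | compl P => (P.lang)ᶜ
  | star P => KStar.kstar P.lang

/-- Star height of an expression. -/
def height : GenExp α → ℕ
  | zero => 0
  | one => 0
  | letter _ => 0
  | plus P Q => max P.height Q.height
  | mul P Q => max P.height Q.height
  | compl P => P.height
  | star P => P.height + 1

end GenExp

end Vale.Agent.Lib.P329W
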