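import Vale.Agent.Lib.P329W.StarFree

namespace Vale.Agent.Lib.P329W

section Hub

variable {α Q : Type}

/-- Run of a deterministic automaton. -/
def run (δ : Q → α → Q) (q : Q) (w : List α) : Q := w.foldl δ q

@[simp] theorem run_nil (δ : Q → α → Q) (q : Q) : run δ q [] = q := rfl
@[simp] theorem run_cons (δ : Q → α → Q) (q : Q) (a : α) (w : List α) :
    run δ q (a :: w) = run δ (δ q a) w := rfl
@[simp] theorem run_append (δ : Q → α → Q) (q : Q) (u v : List α) :
    run δ q (u ++ v) = run δ (run δ q u) v := by
  simp [run, List.foldl_append]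

variable [DecidableEq Q] (δ : Q → α → Q) (h : Q)

/-- One step of the automaton with the hub removed: reaching the hub kills the run. -/
def stepA (o : Option Q) (a : α) : Option Q :=
  o.bind fun q => if δ q a = h then none else some (δ q a)

/-- Run of the automaton with the hub removed. -/
def runA (o : Option Q) (w : List α) : Option Q := w.foldl (stepA δ h) o

@[simp] theorem runA_nil (o : Option Q) : runA δ h o [] = o := rfl
@[simp] theorem runA_cons (o : Option Q) (a : α) (w : List α) :
    runA δ h o (a :: w) = runA δ h (stepA δ h o a) w := rfl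
@[simp] theorem runA_append (o : Option Q) (u v : List α) :
    runA δ h o (u ++ v) = runA δ h (runA δ h o u) v := by
  simp [runA, List.foldl_append]

@[simp] theorem runA_none (w : List α) : runA δ h none w = none := by
  induction w with
  | nil => rfl
  | cons a l ih => simpa [stepA] using ih

/-- The hub condition: under iteration of any word every point dies or becomes stationary. -/
def HubAP : Prop :=
  ∀ (u : List α) (q : Q), ∃ k : ℕ,
    (fun o => runA δ h o u)^[k] (some q) = (fun o => runA δ h o u)^[k + 1] (some q)

variable {δ h}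

theorem runA_some {p q : Q} {w : List α} (hr : runA δ h (some p) w = some q) : run δ p w = q := by
  induction w generalizing p with
  | nil => simpa using hr
  | cons a l ih =>
    rw [runA_cons] at hr
    by_cases ha : δ p a = h
    · simp [stepA, ha] at hr
    · simp only [stepA, Option.bind_some, ha, if_false] at hr
      exact ih hr

end Hub

/-- Partial maps under left to right composition. -/
structure PMap (Q : Type) where
  toFun : Option Q → Option Q

namespace PMap

variable {Q : Type}

@[ext] theorem ext' {f g : PMap Q} (h : f.toFun = g.toFun) : f = g := by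
  cases f; cases g; simpa using h

instance : Monoid (PMap Q) where
  mul f g := ⟨g.toFun ∘ f.toFun⟩
  one := ⟨id⟩
  mul_assoc _ _ _ := rfl
  one_mul _ := rfl
  mul_one _ := rfl

theorem mul_toFun (f g : PMap Q) (o : Option Q) : (f * g).toFun o = g.toFun (f.toFun o) := rfl

theorem one_toFun (o : Option Q) : (1 : PMap Q).toFun o = o := rfl

instance [Finite Q] : Finite (PMap Q) :=
  Finite.of_injective (fun f : PMap Q => f.toFun) (fun _ _ h => ext' h)

theorem pow_toFun (f : PMap Q) (k : ℕ) (o : Option Q) : (f ^ k).toFun o = f.toFun^[k] o := by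
  induction k with
  | zero => rfl
  | succ k ih =>
    rw [pow_succ, mul_toFun, ih, Function.iterate_succ_apply']

end PMap

section Mon

variable {α Q : Type} [DecidableEq Q] {δ : Q → α → Q} {h : Q}

variable (δ h) in
/-- The generators of the transition monoid with the hub removed. -/
def gen (a : α) : PMap Q := ⟨fun o => stepA δ h o a⟩

theorem ev_gen (w : List α) (o : Option Q) :
    (ev (gen δ h) w).toFun o = runA δ h o w := by
  induction w generalizing o with
  | nil => rfl
  | cons a l ih =>
    rw [ev_cons, PMap.mul_toFun, ih]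
    rfl

variable (δ h) in
/-- The transition monoid with the hub removed. -/
def TM : Submonoid (PMap Q) := Submonoid.closure (Set.range (gen δ h))

/-- Letters in the transition monoid. -/
def genT (a : α) : TM δ h := ⟨gen δ h a, Submonoid.subset_closure ⟨a, rfl⟩⟩

theorem ev_genT (w : List α) : (ev (genT (δ := δ) (h := h)) w).1 = ev (gen δ h) w := by
  induction w with
  | nil => rfl
  | cons a l ih =>
    rw [ev_cons, ev_cons, Submonoid.coe_mul, ih]
    rfl

theorem tm_word (x : TM δ h) : ∃ w : List α, x = ev (genT (δ := δ) (h := h)) w := by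
  obtain ⟨x, hx⟩ := x
  induction hx using Submonoid.closure_induction with
  | mem y hy =>
    obtain ⟨a, rfl⟩ := hy
    exact ⟨[a], by simp [genT]⟩
  | one => exact ⟨[], rfl⟩
  | mul y z hy hz ih1 ih2 =>
    obtain ⟨u, hu⟩ := ih1
    obtain ⟨v, hv⟩ := ih2
    refine ⟨u ++ v, ?_⟩
    rw [ev_append, ← hu, ← hv]
    rfl

theorem stable_of_stable {φ : Option Q → Option Q} {o : Option Q} {k : ℕ}
    (hk : φ^[k] o = φ^[k + 1] o) (m : ℕ) : φ^[k + m] o = φ^[k] o := by
  induction m with
  | zero => rfl
  | succ m ih =>
    have h1 : φ^[k + (m + 1)] o = φ (φ^[k + m] o) := Function.iterate_succ_apply' φ (k + m) o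
    rw [h1, ih]
    exact (Function.iterate_succ_apply' φ k o).symm.trans hk.symm

variable [Finite Q]

theorem tm_aper (hAP : HubAP δ h) : Aper (TM δ h) := by
  classical
  intro x
  obtain ⟨u, rfl⟩ := tm_word x
  set φ : Option Q → Option Q := fun o => runA δ h o u with hφ
  have hpt : ∀ o : Option Q, ∃ k, φ^[k] o = φ^[k + 1] o := by
    intro o
    cases o with
    | none =>
      refine ⟨0, ?_⟩
      simp [hφ]
    | some q => exact hAP u q
  choose K hK using hpt
  cases nonempty_fintype (Option Q)
  refine ⟨Finset.univ.sup K, ?_⟩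
  apply Subtype.ext
  apply PMap.ext'
  funext o
  have hf : ∀ n : ℕ, ((ev (genT (δ := δ) (h := h)) u ^ n : TM δ h) : PMap Q).toFun o = φ^[n] o := by
    intro n
    rw [SubmonoidClass.coe_pow, ev_genT, PMap.pow_toFun]
    congr 1
    funext o'
    exact ev_gen u o'
  rw [hf, hf]
  have hle : K o ≤ Finset.univ.sup K := Finset.le_sup (Finset.mem_univ o)
  obtain ⟨m, hm⟩ := Nat.exists_eq_add_of_le hle
  rw [hm, stable_of_stable (hK o) m, show K o + m + 1 = K o + (m + 1) by ring,
    stable_of_stable (hK o) (m + 1)]

/-- Runs avoiding the hub are star-free. -/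
theorem runA_sf [Finite α] (hAP : HubAP δ h) (p q : Q) :
    GSH 0 (fun w : List α => runA δ h (some p) w = some q) := by
  classical
  have : Finite (TM δ h) := Subtype.finite
  have hpiece : ∀ x : TM δ h, GSH 0 (fun w : List α =>
      x.1.toFun (some p) = some q ∧ ev (genT (δ := δ) (h := h)) w = x) := fun x =>
    (GSH.const _ 0).and (sf_of_aper' (tm_aper hAP) genT x)
  refine (GSH.exists_ hpiece).congr (fun w => ?_)
  have key : (ev (genT (δ := δ) (h := h)) w : TM δ h).1.toFun (some p) = runA δ h (some p) w := by
    rw [ev_genT, ev_gen]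
  constructor
  · rintro ⟨x, h1, rfl⟩
    rw [← key, h1]
  · intro h1
    exact ⟨_, by rw [key, h1], rfl⟩

/-- First hitting words of the hub from `p`. -/
def FirstHit (δ : Q → α → Q) (h p : Q) (w : List α) : Prop :=
  ∃ v a r, w = v ++ [a] ∧ runA δ h (some p) v = some r ∧ δ r a = h

theorem firstHit_sf [Finite α] (hAP : HubAP δ h) (p : Q) :
    GSH 0 (FirstHit δ h p : List α → Prop) := by
  have hpiece : ∀ x : Q × α, GSH 0 (fun w : List α =>
      δ x.1 x.2 = h ∧ ∃ v l, w = v ++ l ∧ runA δ h (some p) v = some x.1 ∧ l = [x.2]) := fun x =>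
    (GSH.const _ 0).and ((runA_sf hAP p x.1).mul (GSH.letter 0 x.2))
  refine (GSH.exists_ hpiece).congr (fun w => ?_)
  constructor
  · rintro ⟨⟨r, a⟩, h1, v, l, rfl, h2, rfl⟩
    exact ⟨v, a, r, rfl, h2, h1⟩
  · rintro ⟨v, a, r, rfl, h2, h1⟩
    exact ⟨⟨r, a⟩, h1, v, [a], rfl, h2, rfl⟩

theorem firstHit_run {p : Q} {w : List α} (hw : FirstHit δ h p w) : run δ p w = h := by
  obtain ⟨v, a, r, rfl, h1, h2⟩ := hw
  rw [run_append, runA_some h1]
  exact h2

/-- Hub Lemma: if the transition monoid with the hub removed is aperiodic then every language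
`{w | p · w = q}` of the automaton has generalized star height at most one. -/
theorem hub_gsh [Finite α] (hAP : HubAP δ h) (p q : Q) :
    GSH 1 (fun w : List α => run δ p w = q) := by
  have hStar := (firstHit_sf hAP h).star
  have hU := ((runA_sf hAP p q).mono (Nat.zero_le 1)).or
    ((((firstHit_sf hAP p).mono (Nat.zero_le 1)).mul hStar).mul
      ((runA_sf hAP h q).mono (Nat.zero_le 1)))
  refine hU.congr (fun w => ?_)
  have hstar_run : ∀ L : List (List α), (∀ u ∈ L, FirstHit δ h h u) → run δ h L.flatten = h := by
    intro L hL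
    induction L with
    | nil => rfl
    | cons a l ih =>
      rw [List.flatten_cons, run_append, firstHit_run (hL a (by simp))]
      exact ih (fun u hu => hL u (by simp [hu]))
  constructor
  · rintro (h1 | ⟨x, t, rfl, ⟨e, π, rfl, h1, L, rfl, h2⟩, h3⟩)
    · exact runA_some h1
    · rw [run_append, run_append, firstHit_run h1, hstar_run L h2]
      exact runA_some h3
  · intro hw
    have key : ∀ w : List α, runA δ h (some p) w = some (run δ p w) ∨
        ∃ (e : List α) (L : List (List α)) (t : List α), w = (e ++ L.flatten) ++ t ∧ FirstHit δ h p e ∧ (∀ u ∈ L, FirstHit δ h h u) ∧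
          runA δ h (some h) t = some (run δ p w) := by
      intro w
      induction w using List.reverseRecOn with
      | nil => exact Or.inl rfl
      | append_singleton w a ih =>
        by_cases ha : δ (run δ p w) a = h
        · right
          rcases ih with h1 | ⟨e, L, t, rfl, h1, h2, h3⟩
          · refine ⟨w ++ [a], [], [], by simp, ⟨w, a, _, rfl, h1, ha⟩, by simp, ?_⟩
            simp [ha]
          · refine ⟨e, L ++ [t ++ [a]], [], by simp, h1, ?_, ?_⟩
            · intro u hu
              rcases List.mem_append.1 hu with hu | hu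
              · exact h2 u hu
              · rw [List.mem_singleton] at hu
                subst hu
                exact ⟨t, a, _, rfl, h3, ha⟩
            · rw [run_append]
              simp only [run_cons, run_nil, ha, runA_nil]
        · rcases ih with h1 | ⟨e, L, t, rfl, h1, h2, h3⟩
          · left
            rw [runA_append, h1, run_append]
            simp [stepA, ha]
          · right
            refine ⟨e, L, t ++ [a], by simp, h1, h2, ?_⟩
            have e1 : run δ p (e ++ L.flatten ++ t ++ [a]) = δ (run δ p (e ++ L.flatten ++ t)) a := by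
              rw [run_append]; rfl
            rw [runA_append, h3, e1]
            simp only [runA_cons, runA_nil, stepA, Option.bind_some, ha, if_false]
    rcases key w with h1 | ⟨e, L, t, he, h1, h2, h3⟩
    · left
      rw [h1, hw]
    · right
      refine ⟨e ++ L.flatten, t, he, ⟨e, L.flatten, rfl, h1, L, rfl, h2⟩, ?_⟩
      rw [h3, hw]

end Mon

end Vale.Agent.Lib.P329W
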