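import Vale.Agent.Lib.P329W.Slot

namespace Vale.Agent.Lib.P329W

section Main

variable {α G : Type} [Fintype α] [DecidableEq α] [Group G]

theorem list_prod_eq_prod_pow {P A : Type} [Fintype P] [DecidableEq P] [CommGroup A] (g : P → A)
    (L : List P) : (L.map g).prod = ∏ p : P, g p ^ (L.count p) := by
  induction L with
  | nil => simp
  | cons a l ih =>
    rw [List.map_cons, List.prod_cons, ih]
    have : ∀ x : P, (g x) ^ ((a :: l).count x) =
        (if x = a then g a else 1) * (g x) ^ (l.count x) := by
      intro x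
      rw [List.count_cons]
      by_cases hx : x = a
      · subst hx
        simp [pow_succ, mul_comm]
      · have : ¬ a = x := fun e => hx e.symm
        simp [hx, this]
    simp_rw [this]
    rw [Finset.prod_mul_distrib, Finset.prod_ite_eq' Finset.univ a]
    simp

variable (f : α → G)

open Classical in
/-- A section of the parity vector map: a value of some word with the given parity vector. -/
noncomputable def sec (π : α → ZMod 2) : G :=
  if h : ∃ w : List α, parV w = π then ev f h.choose else 1

theorem sec_spec (w : List α) : ∃ l : List α, parV l = parV w ∧ sec f (parV w) = ev f l := by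
  have h : ∃ l : List α, parV l = parV w := ⟨w, rfl⟩
  refine ⟨h.choose, h.choose_spec, ?_⟩
  unfold sec
  rw [dif_pos h]

/-- The cocycle. -/
noncomputable def coc (p : (α → ZMod 2) × α) : G :=
  sec f p.1 * f p.2 * (sec f (p.1 + Pi.single p.2 1))⁻¹

theorem coc_mem (N : Subgroup G) [N.Normal] (hq : ∀ g : G, g * g ∈ N) (l : List α) (a : α) :
    coc f (parV l, a) ∈ N := by
  obtain ⟨l1, h1, h2⟩ := sec_spec f l
  obtain ⟨l3, h3, h4⟩ := sec_spec f (l ++ [a])
  rw [parV_append, parV_singleton] at h3 h4
  unfold coc
  simp only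
  rw [h2, h4]
  have h5 : ev f l1 * f a = ev f (l1 ++ [a]) := by simp
  rw [h5]
  apply ev_mod_N N hq
  rw [parV_append, parV_singleton, h1, h3]

theorem sec_mul_ev (ρ : α → ZMod 2) (w : List α) :
    sec f ρ * ev f w = ((pairsFrom ρ w).map (coc f)).prod * sec f (ρ + parV w) := by
  induction w generalizing ρ with
  | nil =>
    simp [pairsFrom, parV_nil]
  | cons a l ih =>
    rw [ev_cons, pairsFrom, List.map_cons, List.prod_cons, parV_cons, ← add_assoc, mul_assoc,
      ← ih]
    unfold coc
    simp only [mul_assoc, inv_mul_cancel_left]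

theorem pairs_mem (N : Subgroup G) [N.Normal] (hq : ∀ g : G, g * g ∈ N) (l w : List α) :
    ∀ p ∈ pairsFrom (parV l) w, coc f p ∈ N := by
  induction w generalizing l with
  | nil => simp [pairsFrom]
  | cons a r ih =>
    intro p hp
    rw [pairsFrom, List.mem_cons] at hp
    rcases hp with rfl | hp
    · exact coc_mem f N hq l a
    · have e : parV l + Pi.single a 1 = parV (l ++ [a]) := by
        rw [parV_append, parV_singleton]
      rw [e] at hp
      exact ih _ p hp

/-- The value of a word is determined by its parity vector and the residues of its slot counts. -/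
theorem prof_eq [Finite G] (N : Subgroup G) [N.Normal]
    (hN : ∀ x ∈ N, ∀ y ∈ N, x * y = y * x) (hq : ∀ g : G, g * g ∈ N) {w w' : List α}
    (h1 : parV w = parV w')
    (h2 : ∀ p, (((pairsFrom 0 w).count p : ℕ) : ZMod (Nat.card N)) =
      (((pairsFrom 0 w').count p : ℕ) : ZMod (Nat.card N))) :
    ev f w = ev f w' := by
  classical
  letI : CommGroup N := { (inferInstance : Group N) with
    mul_comm := fun a b => Subtype.ext (hN a.1 a.2 b.1 b.2) }
  let c : (α → ZMod 2) × α → N := fun p => if h : coc f p ∈ N then ⟨coc f p, h⟩ else 1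
  have hprod : ∀ L : List ((α → ZMod 2) × α), (∀ p ∈ L, coc f p ∈ N) →
      (L.map (coc f)).prod = (((L.map c).prod : N) : G) := by
    intro L hL
    induction L with
    | nil => rfl
    | cons a l ih =>
      rw [List.map_cons, List.prod_cons, List.map_cons, List.prod_cons, ih
        (fun p hp => hL p (List.mem_cons_of_mem _ hp))]
      have : ((c a : N) : G) = coc f a := by
        simp only [c]
        rw [dif_pos (hL a (by simp))]
      rw [← this]
      rfl
  have h0 : ((0 : α → ZMod 2)) = parV ([] : List α) := parV_nil.symm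
  have hm : ∀ w : List α, ∀ p ∈ pairsFrom 0 w, coc f p ∈ N := by
    intro w
    rw [h0]
    exact pairs_mem f N hq [] w
  have e1 := sec_mul_ev f 0 w
  have e2 := sec_mul_ev f 0 w'
  rw [hprod _ (hm w)] at e1
  rw [hprod _ (hm w')] at e2
  have hP : ((pairsFrom 0 w).map c).prod = ((pairsFrom 0 w').map c).prod := by
    rw [list_prod_eq_prod_pow, list_prod_eq_prod_pow]
    apply Finset.prod_congr rfl
    intro p _
    have h3 := (ZMod.natCast_eq_natCast_iff' _ _ _).1 (h2 p)
    have h4 : c p ^ Nat.card N = 1 := pow_card_eq_one'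
    refine (pow_eq_pow_mod _ h4).trans (Eq.trans ?_ (pow_eq_pow_mod _ h4).symm)
    congr 1
    convert h3
  rw [hP, zero_add, h1] at e1
  rw [zero_add] at e2
  have := e1.trans e2.symm
  exact mul_left_cancel this

/-- Main theorem over a finite alphabet given as a fintype. -/
theorem main_aux [Finite G] (N : Subgroup G) [N.Normal]
    (hN : ∀ x ∈ N, ∀ y ∈ N, x * y = y * x) (hq : ∀ g : G, g * g ∈ N) (T : Set G) :
    GSH 1 (fun w : List α => ev f w ∈ T) := by
  classical
  haveI : NeZero (Nat.card N) := ⟨Nat.card_pos.ne'⟩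
  haveI : Fintype (ZMod (Nat.card N)) := ZMod.fintype _
  haveI : Fintype (ZMod 2) := ZMod.fintype _
  let X := (α → ZMod 2) × (((α → ZMod 2) × α) → ZMod (Nat.card N))
  let Prof : List α → X := fun w =>
    (parV w, fun p => (((pairsFrom 0 w).count p : ℕ) : ZMod (Nat.card N)))
  have hfib : ∀ x : X, GSH 1 (fun w : List α => Prof w = x) := by
    rintro ⟨π, C⟩
    have h1 : ∀ a : α, GSH 1 (fun w : List α => parV w a = π a) := by
      intro a
      refine (count_modDef a 2 (π a)).congr (fun w => ?_)
      simp [parV]
    have h2 : ∀ p : (α → ZMod 2) × α, GSH 1 (fun w : List α =>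
        (((pairsFrom 0 w).count p : ℕ) : ZMod (Nat.card N)) = C p) := by
      intro p
      refine (cnt_modDef p _ (C p)).congr (fun w => ?_)
      simp
    refine ((GSH.forall_ h1).and (GSH.forall_ h2)).congr (fun w => ?_)
    constructor
    · rintro ⟨h3, h4⟩
      exact Prod.ext (funext h3) (funext h4)
    · intro h3
      exact ⟨fun a => congrFun (congrArg Prod.fst h3) a, fun p => congrFun (congrArg Prod.snd h3) p⟩
  have hpiece : ∀ x : X, GSH 1 (fun w : List α =>
      (∃ w0 : List α, Prof w0 = x ∧ ev f w0 ∈ T) ∧ Prof w = x) :=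
    fun x => (GSH.const _ 1).and (hfib x)
  refine (GSH.exists_ hpiece).congr (fun w => ?_)
  constructor
  · rintro ⟨x, ⟨w0, h1, h2⟩, h3⟩
    have h4 : Prof w = Prof w0 := h3.trans h1.symm
    have h6 : ev f w = ev f w0 :=
      prof_eq f N hN hq (congrArg Prod.fst h4) (fun p => congrFun (congrArg Prod.snd h4) p)
    rw [h6]
    exact h2
  · intro hw
    exact ⟨Prof w, ⟨w, rfl, hw⟩, rfl⟩

end Main

/-- Every language recognized by a finite group having an abelian normal subgroup containing all
squares has generalized star height at most one. -/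
theorem main_thm {α G : Type} [Finite α] [Group G] [Finite G] (N : Subgroup G) [N.Normal]
    (hN : ∀ x ∈ N, ∀ y ∈ N, x * y = y * x) (hq : ∀ g : G, g * g ∈ N)
    (φ : FreeMonoid α →* G) (T : Set G) :
    ∃ r : GenExp α, r.height ≤ 1 ∧ ∀ w : List α, w ∈ r.lang ↔ φ (FreeMonoid.ofList w) ∈ T := by
  classical
  cases nonempty_fintype α
  have h := main_aux (fun a => φ (FreeMonoid.of a)) N hN hq T
  have e : ∀ w : List α, ev (fun a => φ (FreeMonoid.of a)) w = φ (FreeMonoid.ofList w) := by
    intro w
    induction w with
    | nil => simp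
    | cons a l ih =>
      rw [ev_cons, ih, FreeMonoid.ofList_cons, map_mul]
  obtain ⟨r, hr, hw⟩ := h
  refine ⟨r, hr, fun w => (hw w).trans ?_⟩
  show ev _ w ∈ T ↔ _
  rw [e]

end Vale.Agent.Lib.P329W
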