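import Vale.Agent.Lib.P329W.Alt

namespace Vale.Agent.Lib.P329W

section Fourier

variable {α : Type} [Fintype α] [DecidableEq α]

/-- Sign of an element of `ZMod 2`. -/
def sg (a : ZMod 2) : ℤ := if a = 0 then 1 else -1

theorem sg_add (a b : ZMod 2) : sg (a + b) = sg a * sg b := by
  revert a b
  decide

theorem sg_zero : sg 0 = 1 := rfl

theorem sg_one : sg 1 = -1 := rfl

/-- Character of the group of parity vectors attached to a set of letters. -/
def chi (S : Finset α) (ρ : α → ZMod 2) : ℤ := ∏ x ∈ S, sg (ρ x)

theorem chi_zero (S : Finset α) : chi S (0 : α → ZMod 2) = 1 := by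
  simp [chi, sg_zero]

theorem chi_add_single (S : Finset α) (ρ : α → ZMod 2) (a : α) :
    chi S (ρ + Pi.single a 1) = chi S ρ * (if a ∈ S then -1 else 1) := by
  unfold chi
  have h : ∀ x ∈ S, sg ((ρ + Pi.single a 1 : α → ZMod 2) x) =
      sg (ρ x) * (if x = a then -1 else 1) := by
    intro x _
    rw [Pi.add_apply, sg_add]
    by_cases hx : x = a
    · subst hx
      simp [sg_one]
    · simp [hx, Pi.single_eq_of_ne hx, sg_zero]
  rw [Finset.prod_congr rfl h, Finset.prod_mul_distrib]
  congr 1
  rw [Finset.prod_ite_eq']

theorem sgn_xor (z b : Bool) : sgn (xor z b) = sgn z * (if b = true then -1 else 1) := by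
  cases z <;> cases b <;> rfl

theorem fourier (π ρ : α → ZMod 2) :
    ∑ S ∈ (Finset.univ : Finset α).powerset, chi S π * chi S ρ =
      if π = ρ then (2 : ℤ) ^ Fintype.card α else 0 := by
  have h1 : ∀ S ∈ (Finset.univ : Finset α).powerset, chi S π * chi S ρ =
      ∏ x ∈ S, (sg (π x) * sg (ρ x)) := by
    intro S _
    simp only [chi, Finset.prod_mul_distrib]
  rw [Finset.sum_congr rfl h1, ← Finset.prod_one_add]
  split_ifs with h
  · subst h
    have h2 : ∀ x ∈ (Finset.univ : Finset α), 1 + sg (π x) * sg (π x) = 2 := by
      intro x _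
      unfold sg
      split_ifs <;> norm_num
    rw [Finset.prod_congr rfl h2, Finset.prod_const, Finset.card_univ]
  · obtain ⟨x, hx⟩ := Function.ne_iff.1 h
    apply Finset.prod_eq_zero (Finset.mem_univ x)
    have h3 : ∀ a b : ZMod 2, a ≠ b → 1 + sg a * sg b = 0 := by decide
    exact h3 _ _ hx

/-- The list of pairs (parity vector of the prefix, next letter). -/
def pairsFrom (ρ : α → ZMod 2) : List α → List ((α → ZMod 2) × α)
  | [] => []
  | a :: w => (ρ, a) :: pairsFrom (ρ + Pi.single a 1) w

/-- Alternating count of `y` for a character. -/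
def altR (y : α) (S : Finset α) (ρ : α → ZMod 2) : List α → ℤ
  | [] => 0
  | a :: w => (if a = y then chi S ρ else 0) + altR y S (ρ + Pi.single a 1) w

theorem altR_eq_alt (y : α) (S : Finset α) (ρ : α → ZMod 2) (z : Bool) (w : List α)
    (h : sgn z = chi S ρ) : altR y S ρ w = alt y (fun a => decide (a ∈ S)) z w := by
  induction w generalizing ρ z with
  | nil => rfl
  | cons a l ih =>
    rw [altR, alt, h, ih (ρ + Pi.single a 1) (xor z (decide (a ∈ S)))]
    rw [sgn_xor, h, chi_add_single]
    simp

theorem count_identity (π : α → ZMod 2) (y : α) (ρ : α → ZMod 2) (w : List α) :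
    (2 : ℤ) ^ Fintype.card α * ((pairsFrom ρ w).count (π, y) : ℤ) =
      ∑ S ∈ (Finset.univ : Finset α).powerset, chi S π * altR y S ρ w := by
  induction w generalizing ρ with
  | nil => simp [pairsFrom, altR]
  | cons a l ih =>
    simp only [pairsFrom, altR, mul_add]
    rw [List.count_cons, Finset.sum_add_distrib, ← ih]
    push_cast
    rw [mul_add, add_comm]
    congr 1
    by_cases ha : a = y
    · subst ha
      simp only [if_true]
      rw [fourier π ρ]
      by_cases hπ : π = ρ
      · simp [hπ]
      · have : ¬ ρ = π := fun h => hπ h.symm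
        simp [hπ, this]
    · simp [ha]

/-- Counts of letters at a prescribed parity vector of the prefix are definable. -/
theorem cnt_modDef (p : (α → ZMod 2) × α) :
    ModDef (fun w : List α => ((pairsFrom 0 w).count p : ℤ)) := by
  obtain ⟨π, y⟩ := p
  apply ModDef.of_const_mul (2 ^ Fintype.card α) (by positivity)
  have h : ModDef (fun w : List α => ∑ S ∈ (Finset.univ : Finset α).powerset,
      chi S π * altR y S 0 w) := by
    apply ModDef.sum
    intro S _
    apply ModDef.const_mul
    refine (alt_modDef y (fun a => decide (a ∈ S))).congr (fun w => ?_)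
    rw [altR_eq_alt y S 0 false w]
    rw [chi_zero]
    rfl
  refine h.congr (fun w => ?_)
  rw [← count_identity]
  push_cast
  rfl

end Fourier

section Slot

variable {α : Type} [Fintype α] [DecidableEq α]
variable {G : Type} [Group G]

/-- The parity vector of a word. -/
def parV (w : List α) : α → ZMod 2 := fun x => (w.count x : ZMod 2)

theorem parV_cons (a : α) (w : List α) : parV (a :: w) = Pi.single a 1 + parV w := by
  funext x
  simp only [parV, List.count_cons, Pi.add_apply]
  by_cases h : a = x
  · subst h
    simp [add_comm]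
  · have hx : x ≠ a := fun e => h e.symm
    simp [h, Pi.single_eq_of_ne hx]

theorem parV_nil : parV ([] : List α) = 0 := by
  funext x
  simp [parV]

theorem parV_append (u v : List α) : parV (u ++ v) = parV u + parV v := by
  funext x
  simp [parV, List.count_append]

theorem parV_singleton (a : α) : parV [a] = Pi.single a 1 := by
  rw [parV_cons, parV_nil, add_zero]

/-- If all squares lie in the normal subgroup `N`, the class modulo `N` of the value of a word
depends only on its parity vector. -/
theorem ev_mod_N (N : Subgroup G) [N.Normal] (hq : ∀ g : G, g * g ∈ N) (f : α → G)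
    {u v : List α} (h : parV u = parV v) : ev f u * (ev f v)⁻¹ ∈ N := by
  set Q := G ⧸ N
  set q : G →* Q := QuotientGroup.mk' N with hq'
  have hsq : ∀ x : Q, x * x = 1 := by
    intro x
    obtain ⟨g, rfl⟩ := QuotientGroup.mk'_surjective N x
    rw [← map_mul]
    exact (QuotientGroup.eq_one_iff _).2 (hq g)
  have hcomm : ∀ x y : Q, x * y = y * x := by
    intro x y
    have h1 := hsq (x * y)
    have h2 := hsq x
    have h3 := hsq y
    calc x * y = x * (x * y * (x * y)) * y := by
            rw [h1, mul_one]
      _ = (x * x) * y * x * (y * y) := by simp only [mul_assoc]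
      _ = y * x := by rw [h2, h3]; simp
  letI : CommGroup Q := { (QuotientGroup.Quotient.group N) with mul_comm := hcomm }
  have hval : ∀ w : List α, q (ev f w) = ∏ x : α, (q (f x)) ^ (w.count x) := by
    intro w
    induction w with
    | nil => simp [List.count_nil]
    | cons a l ih =>
      rw [ev_cons, map_mul, ih]
      have : ∀ x : α, (q (f x)) ^ ((a :: l).count x) =
          (if x = a then q (f a) else 1) * (q (f x)) ^ (l.count x) := by
        intro x
        rw [List.count_cons]
        by_cases hx : x = a
        · subst hx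
          simp [pow_succ, mul_comm]
        · have : ¬ a = x := fun e => hx e.symm
          simp [hx, this]
      simp_rw [this]
      rw [Finset.prod_mul_distrib, Finset.prod_ite_eq' Finset.univ a]
      simp
  have hpow : ∀ (x : Q) (n k : ℕ), (n : ZMod 2) = (k : ZMod 2) → x ^ n = x ^ k := by
    intro x n k hnk
    have h2 : x ^ 2 = 1 := by rw [pow_two]; exact hsq x
    rw [ZMod.natCast_eq_natCast_iff'] at hnk
    rw [pow_eq_pow_mod n h2, pow_eq_pow_mod k h2, hnk]
  have heq : q (ev f u) = q (ev f v) := by
    rw [hval, hval]
    apply Finset.prod_congr rfl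
    intro x _
    exact hpow _ _ _ (congrFun h x)
  have h3 : q (ev f u * (ev f v)⁻¹) = 1 := by
    rw [map_mul, map_inv, heq]
    exact mul_inv_cancel _
  exact (QuotientGroup.eq_one_iff _).1 h3

end Slot

end Vale.Agent.Lib.P329W
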