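import Vale.Agent.Lib.P329W.Closure

namespace Vale.Agent.Lib.P329W

open GenExp

/-- Evaluation of a word in a monoid. -/
def ev {α M : Type} [Monoid M] (f : α → M) (w : List α) : M := (w.map f).prod

section Ev
variable {α M : Type} [Monoid M] (f : α → M)

@[simp] theorem ev_nil : ev f [] = 1 := rfl

@[simp] theorem ev_cons (a : α) (w : List α) : ev f (a :: w) = f a * ev f w := by
  simp [ev]

@[simp] theorem ev_append (u v : List α) : ev f (u ++ v) = ev f u * ev f v := by
  simp [ev]

end Ev

/-- A monoid is aperiodic if every element satisfies `x ^ k = x ^ (k + 1)` for some `k`. -/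
def Aper (M : Type) [Monoid M] : Prop := ∀ x : M, ∃ k : ℕ, x ^ k = x ^ (k + 1)

/-! ### Local divisors -/

section LocalDivisor

variable {M : Type} [Monoid M]

/-- The underlying set of the local divisor at `c`. -/
def LD (c : M) : Type := {z : M // (∃ x, z = x * c) ∧ (∃ y, z = c * y)}

/-- Multiplication of the local divisor: `x c ∘ c y = x c y`. -/
noncomputable def ldMul {c : M} (a b : LD c) : LD c :=
  ⟨a.2.1.choose * b.1, by
    obtain ⟨⟨x, hx⟩, ⟨y, hy⟩⟩ := b.2
    obtain ⟨⟨x', hx'⟩, ⟨y', hy'⟩⟩ := a.2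
    have h := a.2.1.choose_spec
    refine ⟨⟨a.2.1.choose * x, by rw [hx, mul_assoc]⟩, ⟨y' * y, ?_⟩⟩
    rw [hy, ← mul_assoc, ← h, hy', mul_assoc]⟩

theorem ldMul_val {c : M} (a b : LD c) {x y : M} (hx : a.1 = x * c) (hy : b.1 = c * y) :
    (ldMul a b).1 = x * c * y := by
  change a.2.1.choose * b.1 = _
  have h := a.2.1.choose_spec
  rw [hy, ← mul_assoc, ← h, hx]

/-- The unit of the local divisor is `c`. -/
def ldOne (c : M) : LD c := ⟨c, ⟨1, by simp⟩, ⟨1, by simp⟩⟩

noncomputable instance ldMonoid (c : M) : Monoid (LD c) where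
  mul := ldMul
  one := ldOne c
  mul_assoc a b c' := by
    apply Subtype.ext
    change (ldMul (ldMul a b) c').1 = (ldMul a (ldMul b c')).1
    obtain ⟨xa, hxa⟩ := a.2.1
    obtain ⟨xb, hxb⟩ := b.2.1
    obtain ⟨yb, hyb⟩ := b.2.2
    obtain ⟨yc, hyc⟩ := c'.2.2
    have h1 : (ldMul a b).1 = (xa * xb) * c := by
      rw [ldMul_val a b hxa hyb, mul_assoc, ← hyb, hxb, mul_assoc]
    have h2 : (ldMul b c').1 = c * (yb * yc) := by
      rw [ldMul_val b c' hxb hyc, ← hxb, hyb, mul_assoc]
    rw [ldMul_val _ c' h1 hyc, ldMul_val a _ hxa h2]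
    calc xa * xb * c * yc = xa * (xb * c) * yc := by simp only [mul_assoc]
      _ = xa * (c * yb) * yc := by rw [← hxb, hyb]
      _ = xa * c * (yb * yc) := by simp only [mul_assoc]
  one_mul a := by
    apply Subtype.ext
    change (ldMul (ldOne c) a).1 = a.1
    obtain ⟨y, hy⟩ := a.2.2
    rw [ldMul_val (ldOne c) a (x := 1) (by simp [ldOne]) hy, hy, one_mul]
  mul_one a := by
    apply Subtype.ext
    change (ldMul a (ldOne c)).1 = a.1
    obtain ⟨x, hx⟩ := a.2.1
    rw [ldMul_val a (ldOne c) (y := 1) hx (by simp [ldOne]), hx, mul_one]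

theorem ld_mul_val {c : M} (a b : LD c) {x y : M} (hx : a.1 = x * c) (hy : b.1 = c * y) :
    (a * b).1 = x * c * y := ldMul_val a b hx hy

theorem ld_one_val (c : M) : (1 : LD c).1 = c := rfl

theorem ld_pow_val {c : M} (a : LD c) {y : M} (hy : a.1 = c * y) (k : ℕ) :
    (a ^ (k + 1)).1 = c * y ^ (k + 1) := by
  induction k with
  | zero => simpa using hy
  | succ k ih =>
    rw [pow_succ a (k + 1)]
    obtain ⟨x, hx⟩ := (a ^ (k + 1)).2.1
    rw [ld_mul_val (a ^ (k + 1)) a hx hy, ← hx, ih, pow_succ y (k + 1), mul_assoc]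

theorem ld_aper {c : M} (h : Aper M) : Aper (LD c) := by
  intro a
  obtain ⟨y, hy⟩ := a.2.2
  obtain ⟨k, hk⟩ := h y
  refine ⟨k + 1, Subtype.ext ?_⟩
  have h2 : y ^ (k + 1) = y ^ (k + 1 + 1) := by
    calc y ^ (k + 1) = y ^ k * y := pow_succ _ _
      _ = y ^ (k + 1) * y := by rw [← hk]
      _ = y ^ (k + 1 + 1) := (pow_succ _ _).symm
  rw [ld_pow_val a hy, ld_pow_val a hy, ← h2]

theorem one_not_ld {c : M} (h : Aper M) (hc : c ≠ 1) (z : LD c) : z.1 ≠ 1 := by
  intro hz
  obtain ⟨⟨x, hx⟩, ⟨y, hy⟩⟩ := z.2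
  rw [hz] at hx hy
  -- `c` is invertible
  have hxy : x = y := by
    calc x = x * (c * y) := by rw [← hy, mul_one]
      _ = (x * c) * y := by rw [mul_assoc]
      _ = y := by rw [← hx, one_mul]
  subst hxy
  obtain ⟨k, hk⟩ := h c
  have hpow : ∀ n : ℕ, x ^ n * c ^ n = 1 := by
    intro n
    induction n with
    | zero => simp
    | succ n ih =>
      rw [pow_succ x n, pow_succ' c n]
      calc x ^ n * x * (c * c ^ n) = x ^ n * (x * c) * c ^ n := by simp only [mul_assoc]
        _ = 1 := by rw [← hx, mul_one, ih]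
  apply hc
  calc c = (x ^ k * c ^ k) * c := by rw [hpow k, one_mul]
    _ = x ^ k * c ^ (k + 1) := by rw [pow_succ c k, mul_assoc]
    _ = x ^ k * c ^ k := by rw [← hk]
    _ = 1 := hpow k

instance ld_finite [Finite M] (c : M) : Finite (LD c) := by
  unfold LD
  infer_instance

theorem ld_card_lt [Finite M] {c : M} (h : Aper M) (hc : c ≠ 1) :
    Nat.card (LD c) < Nat.card M := by
  classical
  cases nonempty_fintype M
  letI : Fintype (LD c) := Fintype.ofFinite _
  rw [Nat.card_eq_fintype_card, Nat.card_eq_fintype_card]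
  refine Fintype.card_lt_of_injective_of_notMem (fun z : LD c => z.1) Subtype.val_injective
    (b := (1 : M)) ?_
  rintro ⟨z, hz⟩
  exact one_not_ld h hc z hz

/-- The generators of the local divisor. -/
def ldGen (c t : M) : LD c := ⟨c * t * c, ⟨c * t, rfl⟩, ⟨t * c, by rw [mul_assoc]⟩⟩

end LocalDivisor

/-! ### Words over a subalphabet and block decomposition -/

section Parse

variable {α M : Type} [Monoid M]

/-- All letters of `w` lie in `A`. -/
def Over (A : Finset α) (w : List α) : Prop := ∀ x ∈ w, x ∈ A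

theorem over_nil (A : Finset α) : Over A [] := by simp [Over]

theorem over_append {A : Finset α} {u v : List α} : Over A (u ++ v) ↔ Over A u ∧ Over A v := by
  simp only [Over, List.mem_append]
  constructor
  · intro h
    exact ⟨fun x hx => h x (Or.inl hx), fun x hx => h x (Or.inr hx)⟩
  · rintro ⟨h1, h2⟩ x (hx | hx)
    · exact h1 x hx
    · exact h2 x hx

theorem over_cons {A : Finset α} {a : α} {v : List α} : Over A (a :: v) ↔ a ∈ A ∧ Over A v := by
  simp [Over]

theorem over_gsh [Finite α] (n : ℕ) (A : Finset α) : GSH n (Over A) := by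
  have h : ∀ c : α, GSH n (fun w : List α => c ∉ A → c ∉ w) := by
    intro c
    by_cases hc : c ∈ A
    · exact (GSH.const True n).congr (fun w => by simp [hc])
    · exact (GSH.contains n c).not.congr (fun w => by simp [hc])
  refine (GSH.forall_ h).congr (fun w => ?_)
  simp only [Over]
  constructor
  · intro h x hx
    by_contra hxA
    exact h x hxA hx
  · intro h c hc hcw
    exact hc (h c hcw)

/-- `w` is empty or ends with `c`. -/
def EndsC (c : α) (w : List α) : Prop := w = [] ∨ ∃ w0, w = w0 ++ [c]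

theorem endsC_gsh (n : ℕ) (c : α) : GSH n (EndsC c) := by
  have h := (GSH.nil (α := α) n).or ((GSH.true_ n).mul (GSH.letter n c))
  refine h.congr (fun w => ?_)
  simp only [EndsC]
  constructor
  · rintro (h | ⟨u, v, rfl, -, rfl⟩)
    · exact Or.inl h
    · exact Or.inr ⟨u, rfl⟩
  · rintro (h | ⟨u, rfl⟩)
    · exact Or.inl h
    · exact Or.inr ⟨u, [c], rfl, trivial, rfl⟩

/-- Block decomposition: `Parse c B f v w` says that `w = u₁ c u₂ c ⋯ uₙ c`, with the `uᵢ` over `B`,
and `v` lists the values of the `uᵢ`. -/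
def Parse (c : α) (B : Finset α) (f : α → M) : List M → List α → Prop
  | [], w => w = []
  | t :: v, w => ∃ u w', w = u ++ c :: w' ∧ Over B u ∧ ev f u = t ∧ Parse c B f v w'

variable {c : α} {B : Finset α} {f : α → M}

theorem parse_append (v1 v2 : List M) (w : List α) :
    Parse c B f (v1 ++ v2) w ↔ ∃ w1 w2, w = w1 ++ w2 ∧ Parse c B f v1 w1 ∧ Parse c B f v2 w2 := by
  induction v1 generalizing w with
  | nil =>
    simp only [List.nil_append, Parse]
    constructor
    · intro h
      exact ⟨[], w, rfl, rfl, h⟩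
    · rintro ⟨w1, w2, rfl, rfl, h⟩
      simpa using h
  | cons t v ih =>
    simp only [List.cons_append, Parse]
    constructor
    · rintro ⟨u, w', rfl, hu, ht, hp⟩
      obtain ⟨w1, w2, rfl, h1, h2⟩ := (ih w').1 hp
      exact ⟨u ++ c :: w1, w2, by simp, ⟨u, w1, rfl, hu, ht, h1⟩, h2⟩
    · rintro ⟨w1, w2, rfl, ⟨u, w', rfl, hu, ht, h1⟩, h2⟩
      exact ⟨u, w' ++ w2, by simp, hu, ht, (ih _).2 ⟨w', w2, rfl, h1, h2⟩⟩

theorem split_unique (hc : c ∉ B) {u u' w w' : List α} (hu : Over B u) (hu' : Over B u')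
    (h : u ++ c :: w = u' ++ c :: w') : u = u' ∧ w = w' := by
  induction u generalizing u' with
  | nil =>
    cases u' with
    | nil => simpa using h
    | cons a l =>
      simp only [List.nil_append, List.cons_append, List.cons.injEq] at h
      exact absurd (hu' a (by simp)) (by rw [← h.1]; exact hc)
  | cons a l ih =>
    cases u' with
    | nil =>
      simp only [List.nil_append, List.cons_append, List.cons.injEq] at h
      exact absurd (hu a (by simp)) (by rw [h.1]; exact hc)
    | cons b l' =>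
      simp only [List.cons_append, List.cons.injEq] at h
      obtain ⟨h1, h2⟩ := h
      obtain ⟨h3, h4⟩ := ih (over_cons.1 hu).2 (over_cons.1 hu').2 h2
      exact ⟨by rw [h1, h3], h4⟩

theorem parse_unique (hc : c ∉ B) {v v' : List M} {w : List α}
    (h : Parse c B f v w) (h' : Parse c B f v' w) : v = v' := by
  induction v generalizing v' w with
  | nil =>
    cases v' with
    | nil => rfl
    | cons t v' =>
      obtain ⟨u, w', rfl, -⟩ := h'
      simp [Parse] at h
  | cons t v ih =>
    cases v' with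
    | nil =>
      obtain ⟨u, w', rfl, -⟩ := h
      simp [Parse] at h'
    | cons t' v' =>
      obtain ⟨u, w', rfl, hu, ht, hp⟩ := h
      obtain ⟨u', w'', he, hu', ht', hp'⟩ := h'
      obtain ⟨rfl, rfl⟩ := split_unique hc hu hu' he
      rw [← ht, ← ht', ih hp hp']

theorem parse_rc [DecidableEq α] {v : List M} {w : List α} (h : Parse c B f v w) :
    Over (insert c B) w ∧ EndsC c w := by
  induction v generalizing w with
  | nil =>
    cases h
    exact ⟨over_nil _, Or.inl rfl⟩
  | cons t v ih =>
    obtain ⟨u, w', rfl, hu, -, hp⟩ := h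
    obtain ⟨h1, h2⟩ := ih hp
    refine ⟨?_, Or.inr ?_⟩
    · rw [over_append, over_cons]
      exact ⟨fun x hx => Finset.mem_insert_of_mem (hu x hx), Finset.mem_insert_self _ _, h1⟩
    · rcases h2 with rfl | ⟨w0, rfl⟩
      · exact ⟨u, rfl⟩
      · exact ⟨u ++ c :: w0, by simp⟩

theorem parse_exists (f : α → M) [DecidableEq α] (hc : c ∉ B) {w : List α}
    (h1 : Over (insert c B) w) (h2 : EndsC c w) : ∃ v, Parse c B f v w := by
  induction hn : w.length using Nat.strong_induction_on generalizing w with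
  | _ n ih =>
    rcases w with _ | ⟨a, l⟩
    · exact ⟨[], rfl⟩
    · have hmem : c ∈ a :: l := by
        rcases h2 with h | ⟨w0, h⟩
        · simp at h
        · rw [h]; simp
      obtain ⟨u, w', he, hcu⟩ := List.eq_append_cons_of_mem hmem
      rw [he] at h1 h2
      rw [over_append, over_cons] at h1
      have hu : Over B u := fun x hx => by
        have := h1.1 x hx
        rcases Finset.mem_insert.1 this with rfl | h
        · exact absurd hx hcu
        · exact h
      have hw' : EndsC c w' := by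
        rcases h2 with h | ⟨w0, h⟩
        · simp at h
        · rcases List.eq_nil_or_concat w' with rfl | ⟨l', b, hl⟩
          · exact Or.inl rfl
          · rw [List.concat_eq_append] at hl
            subst hl
            have : (u ++ c :: (l' ++ [b])) = (u ++ c :: l') ++ [b] := by simp
            rw [this] at h
            have h3 := (List.append_inj' h (by simp)).2
            simp only [List.cons.injEq, and_true] at h3
            exact Or.inr ⟨l', by rw [h3]⟩
      have hlen : w'.length < n := by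
        rw [← hn, he]
        simp
        omega
      obtain ⟨v, hv⟩ := ih _ hlen h1.2.2 hw' rfl
      exact ⟨ev f u :: v, u, w', he, hu, rfl, hv⟩

theorem split_last (c : α) (B : Finset α) [DecidableEq α] {w : List α}
    (h : Over (insert c B) w) : ∃ w1 u, w = w1 ++ u ∧ Over (insert c B) w1 ∧ EndsC c w1 ∧ Over B u := by
  induction w with
  | nil => exact ⟨[], [], rfl, over_nil _, Or.inl rfl, over_nil _⟩
  | cons a l ih =>
    rw [over_cons] at h
    obtain ⟨w1, u, rfl, h1, h2, h3⟩ := ih h.2
    rcases Finset.mem_insert.1 h.1 with rfl | ha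
    · refine ⟨a :: w1, u, rfl, over_cons.2 ⟨Finset.mem_insert_self _ _, h1⟩, Or.inr ?_, h3⟩
      rcases h2 with rfl | ⟨w0, rfl⟩
      · exact ⟨[], rfl⟩
      · exact ⟨a :: w0, rfl⟩
    · rcases h2 with rfl | ⟨w0, rfl⟩
      · exact ⟨[], a :: u, rfl, over_nil _, Or.inl rfl, over_cons.2 ⟨ha, h3⟩⟩
      · exact ⟨a :: (w0 ++ [c]), u, rfl, over_cons.2 ⟨Finset.mem_insert_of_mem ha, h1⟩,
          Or.inr ⟨a :: w0, rfl⟩, h3⟩

/-- Substitution lemma: star-free languages over the block alphabet pull back to star-free languages. -/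
theorem parse_subst [Finite α] [DecidableEq α] (hc : c ∉ B)
    (hB : ∀ t : M, GSH 0 (fun u : List α => Over B u ∧ ev f u = t))
    (r : GenExp M) (hr : r.height ≤ 0) :
    GSH 0 (fun w : List α => ∃ v, Parse c B f v w ∧ v ∈ r.lang) := by
  induction r with
  | zero =>
    exact (GSH.empty 0).congr (fun w => by simp [lang, Language.notMem_zero])
  | one =>
    refine (GSH.nil 0).congr (fun w => ?_)
    simp only [lang, Language.mem_one]
    constructor
    · rintro rfl
      exact ⟨[], rfl, rfl⟩
    · rintro ⟨v, hp, rfl⟩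
      exact hp
  | letter t =>
    refine ((hB t).mul (GSH.letter 0 c)).congr (fun w => ?_)
    constructor
    · rintro ⟨u, v, rfl, ⟨hu, ht⟩, rfl⟩
      exact ⟨[t], ⟨u, [], rfl, hu, ht, rfl⟩, rfl⟩
    · rintro ⟨v, hp, hv⟩
      have hv' : v = [t] := hv
      subst hv'
      obtain ⟨u, w', rfl, hu, ht, hw'⟩ := hp
      cases hw'
      exact ⟨u, [c], rfl, ⟨hu, ht⟩, rfl⟩
  | plus P Q ihP ihQ =>
    simp only [height, nonpos_iff_eq_zero, Nat.max_eq_zero_iff] at hr
    refine (GSH.or (ihP hr.1.le) (ihQ hr.2.le)).congr (fun w => ?_)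
    simp only [lang, Language.mem_add]
    constructor
    · rintro (⟨v, h1, h2⟩ | ⟨v, h1, h2⟩)
      · exact ⟨v, h1, Or.inl h2⟩
      · exact ⟨v, h1, Or.inr h2⟩
    · rintro ⟨v, h1, h2 | h2⟩
      · exact Or.inl ⟨v, h1, h2⟩
      · exact Or.inr ⟨v, h1, h2⟩
  | mul P Q ihP ihQ =>
    simp only [height, nonpos_iff_eq_zero, Nat.max_eq_zero_iff] at hr
    refine (GSH.mul (ihP hr.1.le) (ihQ hr.2.le)).congr (fun w => ?_)
    simp only [lang, Language.mem_mul]
    constructor
    · rintro ⟨w1, w2, rfl, ⟨v1, h1, h1'⟩, ⟨v2, h2, h2'⟩⟩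
      exact ⟨v1 ++ v2, (parse_append _ _ _).2 ⟨w1, w2, rfl, h1, h2⟩, v1, h1', v2, h2', rfl⟩
    · rintro ⟨v, hp, v1, h1, v2, h2, rfl⟩
      obtain ⟨w1, w2, rfl, h3, h4⟩ := (parse_append _ _ _).1 hp
      exact ⟨w1, w2, rfl, ⟨v1, h3, h1⟩, ⟨v2, h4, h2⟩⟩
  | compl P ihP =>
    simp only [height] at hr
    refine (((over_gsh 0 (insert c B)).and (endsC_gsh 0 c)).and (ihP hr).not).congr (fun w => ?_)
    simp only [lang]
    constructor
    · rintro ⟨⟨h1, h2⟩, h3⟩
      obtain ⟨v, hv⟩ := parse_exists f hc h1 h2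
      refine ⟨v, hv, ?_⟩
      intro hmem
      exact h3 ⟨v, hv, hmem⟩
    · rintro ⟨v, hv, hmem⟩
      refine ⟨parse_rc hv, ?_⟩
      rintro ⟨v', hv', hmem'⟩
      rw [parse_unique hc hv hv'] at hmem
      exact hmem hmem'
  | star P _ =>
    simp [height] at hr

/-- The value of a block decomposition in the local divisor. -/
theorem parse_val {c : α} {B : Finset α} {f : α → M} {v : List M} {w : List α}
    (h : Parse c B f v w) :
    f c * ev f w = (ev (ldGen (f c)) v).1 := by
  induction v generalizing w with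
  | nil =>
    cases h
    simp [ld_one_val]
  | cons t v ih =>
    obtain ⟨u, w', rfl, -, ht, hp⟩ := h
    rw [ev_cons, ev_append, ev_cons]
    have h1 : (ldGen (f c) t).1 = (f c * t) * f c := rfl
    rw [ld_mul_val _ _ h1 (ih hp).symm]
    subst ht
    simp only [mul_assoc]

end Parse

/-! ### Main theorem: aperiodic recognition implies star-free -/

theorem sf_over_step {α M : Type} [Monoid M] [Finite M] [Finite α] [DecidableEq α]
    (IH : ∀ (N : Type) [Monoid N] [Finite N], Nat.card N < Nat.card M → Aper N →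
      ∀ (β : Type) [Finite β] (g : β → N) (z : N), GSH 0 (fun w : List β => ev g w = z))
    (hM : Aper M) (f : α → M) (A : Finset α) :
    ∀ m : M, GSH 0 (fun w : List α => Over A w ∧ ev f w = m) := by
  classical
  induction A using Finset.strongInduction with
  | H A ih =>
    intro m
    by_cases hall : ∀ c ∈ A, f c = 1
    · -- every letter of `A` has value one
      have hev : ∀ w : List α, Over A w → ev f w = 1 := by
        intro w hw
        induction w with
        | nil => rfl
        | cons a l ihl =>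
          rw [over_cons] at hw
          rw [ev_cons, hall a hw.1, ihl hw.2, one_mul]
      refine ((over_gsh 0 A).and (GSH.const (m = 1) 0)).congr (fun w => ?_)
      constructor
      · rintro ⟨h1, rfl⟩
        exact ⟨h1, hev w h1⟩
      · rintro ⟨h1, h2⟩
        exact ⟨h1, by rw [← h2, hev w h1]⟩
    · push Not at hall
      obtain ⟨c, hcA, hc⟩ := hall
      set B := A.erase c with hBdef
      have hcB : c ∉ B := Finset.notMem_erase c A
      have hAB : insert c B = A := Finset.insert_erase hcA
      have hB : ∀ t : M, GSH 0 (fun u : List α => Over B u ∧ ev f u = t) :=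
        ih B (Finset.erase_ssubset hcA)
      -- the star-free expressions over the block alphabet
      have hLD : ∀ z : LD (f c), ∃ r : GenExp M, r.height ≤ 0 ∧
          ∀ v, v ∈ r.lang ↔ ev (ldGen (f c)) v = z := by
        intro z
        exact IH (LD (f c)) (ld_card_lt hM hc) (ld_aper hM) M (ldGen (f c)) z
      have hMid : ∀ z : LD (f c), GSH 0 (fun w : List α =>
          ∃ v, Parse c B f v w ∧ ev (ldGen (f c)) v = z) := by
        intro z
        obtain ⟨r, hr, hv⟩ := hLD z
        refine (parse_subst hcB hB r hr).congr (fun w => ?_)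
        simp only [hv]
      -- assemble
      have hpiece : ∀ (p : M × LD (f c) × M), GSH 0 (fun w : List α =>
          p.1 * p.2.1.1 * p.2.2 = m ∧
          ∃ u0 w1 u2, w = ((u0 ++ [c]) ++ w1) ++ u2 ∧ (Over B u0 ∧ ev f u0 = p.1) ∧
            (∃ v, Parse c B f v w1 ∧ ev (ldGen (f c)) v = p.2.1) ∧ (Over B u2 ∧ ev f u2 = p.2.2)) := by
        rintro ⟨m0, z, m2⟩
        refine (GSH.const _ 0).and ?_
        refine ((((hB m0).mul (GSH.letter 0 c)).mul (hMid z)).mul (hB m2)).congr (fun w => ?_)
        constructor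
        · rintro ⟨x, u2, rfl, ⟨x', w1, rfl, ⟨u0, c', rfl, h0, rfl⟩, h1⟩, h2⟩
          exact ⟨u0, w1, u2, rfl, h0, h1, h2⟩
        · rintro ⟨u0, w1, u2, rfl, h0, h1, h2⟩
          exact ⟨_, u2, rfl, ⟨_, w1, rfl, ⟨u0, [c], rfl, h0, rfl⟩, h1⟩, h2⟩
      have hU := (hB m).or (GSH.exists_ hpiece)
      refine hU.congr (fun w => ?_)
      constructor
      · rintro (⟨h1, h2⟩ | ⟨⟨m0, z, m2⟩, hm, u0, w1, u2, rfl, ⟨h0, rfl⟩, ⟨v, hp, hz⟩, ⟨h2, rfl⟩⟩)
        · refine ⟨?_, h2⟩
          rw [← hAB]
          exact fun x hx => Finset.mem_insert_of_mem (h1 x hx)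
        · simp only at hm
          obtain ⟨h3, -⟩ := parse_rc hp
          constructor
          · rw [← hAB]
            simp only [over_append, over_cons]
            exact ⟨⟨⟨fun x hx => Finset.mem_insert_of_mem (h0 x hx),
              Finset.mem_insert_self _ _, over_nil _⟩, h3⟩,
              fun x hx => Finset.mem_insert_of_mem (h2 x hx)⟩
          · have hz' : ev (ldGen (f c)) v = z := hz
            subst hz'
            rw [← hm, ← parse_val hp]
            simp [mul_assoc]
      · rintro ⟨h1, rfl⟩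
        rw [← hAB] at h1
        by_cases hcw : c ∈ w
        · obtain ⟨u0, w', rfl, hcu⟩ := List.eq_append_cons_of_mem hcw
          rw [over_append, over_cons] at h1
          obtain ⟨h01, -, h03⟩ := h1
          have hu0 : Over B u0 := fun x hx => by
            rcases Finset.mem_insert.1 (h01 x hx) with rfl | h
            · exact absurd hx hcu
            · exact h
          obtain ⟨w1, u2, rfl, h4, h5, h6⟩ := split_last c B h03
          obtain ⟨v, hv⟩ := parse_exists f hcB h4 h5
          refine Or.inr ⟨⟨ev f u0, ev (ldGen (f c)) v, ev f u2⟩, ?_, u0, w1, u2, by simp,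
            ⟨hu0, rfl⟩, ⟨v, hv, rfl⟩, ⟨h6, rfl⟩⟩
          simp only
          rw [← parse_val hv]
          simp [mul_assoc]
        · refine Or.inl ⟨fun x hx => ?_, rfl⟩
          rcases Finset.mem_insert.1 (h1 x hx) with rfl | h
          · exact absurd hx hcw
          · exact h

/-- Schützenberger's theorem, easy direction needed here: every language recognized by a
finite aperiodic monoid is star-free. The proof is the local divisor proof. -/
theorem sf_of_aper (n : ℕ) : ∀ (M : Type) [Monoid M] [Finite M], Nat.card M ≤ n → Aper M →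
    ∀ (α : Type) [Finite α] (f : α → M) (m : M), GSH 0 (fun w : List α => ev f w = m) := by
  classical
  induction n with
  | zero =>
    intro M _ _ hcard
    have : Nat.card M ≠ 0 := Nat.card_pos.ne'
    omega
  | succ n ih =>
    intro M _ _ hcard hM α _ f m
    have IH : ∀ (N : Type) [Monoid N] [Finite N], Nat.card N < Nat.card M → Aper N →
        ∀ (β : Type) [Finite β] (g : β → N) (z : N), GSH 0 (fun w : List β => ev g w = z) := by
      intro N _ _ hN hN' β _ g z
      exact ih N (by omega) hN' β g z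
    cases nonempty_fintype α
    refine (sf_over_step IH hM f Finset.univ m).congr (fun w => ?_)
    simp [Over]

theorem sf_of_aper' {M : Type} [Monoid M] [Finite M] (hM : Aper M) {α : Type} [Finite α]
    (f : α → M) (m : M) : GSH 0 (fun w : List α => ev f w = m) :=
  sf_of_aper _ M le_rfl hM α f m

end Vale.Agent.Lib.P329W
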