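import Vale.Agent.Lib.P329W.Hub

namespace Vale.Agent.Lib.P329W

section Walk

variable {α : Type} (m : α → Bool) (κ : α → ℤ)

/-- The Boolean coordinate of the walk automaton. -/
def zRun (z : Bool) : List α → Bool
  | [] => z
  | a :: w => zRun (xor z (m a)) w

/-- The integer displacement: a letter contributes when it lands on `false`. -/
def disp (z : Bool) : List α → ℤ
  | [] => 0
  | a :: w => (if xor z (m a) = false then κ a else 0) + disp (xor z (m a)) w

@[simp] theorem zRun_nil (z : Bool) : zRun m z [] = z := rfl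
@[simp] theorem zRun_cons (z : Bool) (a : α) (w : List α) :
    zRun m z (a :: w) = zRun m (xor z (m a)) w := rfl
@[simp] theorem disp_nil (z : Bool) : disp m κ z [] = 0 := rfl
@[simp] theorem disp_cons (z : Bool) (a : α) (w : List α) :
    disp m κ z (a :: w) = (if xor z (m a) = false then κ a else 0) + disp m κ (xor z (m a)) w := rfl

theorem zRun_append (z : Bool) (u v : List α) : zRun m z (u ++ v) = zRun m (zRun m z u) v := by
  induction u generalizing z with
  | nil => rfl
  | cons a l ih => exact ih _

theorem disp_append (z : Bool) (u v : List α) :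
    disp m κ z (u ++ v) = disp m κ z u + disp m κ (zRun m z u) v := by
  induction u generalizing z with
  | nil => simp
  | cons a l ih =>
    simp only [List.cons_append, disp_cons, zRun_cons, ih, add_assoc]

theorem zRun_eq_xor (z : Bool) (u : List α) : zRun m z u = xor z (zRun m false u) := by
  induction u generalizing z with
  | nil => simp
  | cons a l ih =>
    rw [zRun_cons, zRun_cons, ih, ih (xor false (m a))]
    cases z <;> cases (m a) <;> simp

theorem disp_add_compl (z : Bool) (u : List α) :
    disp m κ z u + disp m κ (!z) u = (u.map κ).sum := by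
  induction u generalizing z with
  | nil => simp
  | cons a l ih =>
    simp only [disp_cons, List.map_cons, List.sum_cons]
    have h := ih (xor z (m a))
    have e : xor (!z) (m a) = !(xor z (m a)) := by cases z <;> cases (m a) <;> rfl
    rw [e]
    cases hz : xor z (m a)
    · rw [hz] at h
      simp only [Bool.not_false, reduceCtorEq, if_false, if_true] at h ⊢
      linarith
    · rw [hz] at h
      simp only [Bool.not_true, reduceCtorEq, if_false, if_true] at h ⊢
      linarith

/-- The walk automaton on `Bool × ZMod M`. -/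
def wδ (M : ℕ) (q : Bool × ZMod M) (a : α) : Bool × ZMod M :=
  (xor q.1 (m a), if xor q.1 (m a) = false then q.2 + ((κ a : ℤ) : ZMod M) else q.2)

theorem run_wδ (M : ℕ) (z : Bool) (s : ZMod M) (w : List α) :
    run (wδ m κ M) (z, s) w = (zRun m z w, s + ((disp m κ z w : ℤ) : ZMod M)) := by
  induction w generalizing z s with
  | nil => simp
  | cons a l ih =>
    rw [run_cons]
    have : wδ m κ M (z, s) a =
        (xor z (m a), if xor z (m a) = false then s + ((κ a : ℤ) : ZMod M) else s) := rfl
    rw [this, ih, zRun_cons, disp_cons]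
    congr 1
    split_ifs <;> simp [add_assoc]

variable {m κ}

/-- Crossing lemma: a lifted run which crosses a multiple of `M` passes through the hub. -/
theorem crossing (M : ℕ) (hκ : ∀ a, |κ a| ≤ 1) (z : Bool) (S T : ℤ) (hT : ((T : ℤ) : ZMod M) = 0)
    (W : List α)
    (hc : (S < T ∧ T ≤ S + disp m κ z W) ∨ (S + disp m κ z W ≤ T ∧ T < S)) :
    ∃ p, p ≠ [] ∧ p <+: W ∧ run (wδ m κ M) (z, (S : ZMod M)) p = (false, 0) := by
  induction W using List.reverseRecOn with
  | nil => simp only [disp_nil, add_zero] at hc; omega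
  | append_singleton W a ih =>
    rw [disp_append] at hc
    set z1 := zRun m z W with hz1
    have hd : disp m κ z1 [a] = (if xor z1 (m a) = false then κ a else 0) := by simp
    rw [hd] at hc
    by_cases hprev : (S < T ∧ T ≤ S + disp m κ z W) ∨ (S + disp m κ z W ≤ T ∧ T < S)
    · obtain ⟨p, h1, h2, h3⟩ := ih hprev
      exact ⟨p, h1, h2.trans (List.prefix_append _ _), h3⟩
    · refine ⟨W ++ [a], by simp, List.prefix_refl _, ?_⟩
      rw [run_wδ, zRun_append, disp_append, ← hz1, hd]
      have hκa := abs_le.1 (hκ a)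
      by_cases hl : xor z1 (m a) = false
      · rw [if_pos hl] at hc ⊢
        have hzz : zRun m z1 [a] = false := by simpa using hl
        rw [hzz]
        have hTe : T = S + (disp m κ z W + κ a) := by omega
        rw [← Int.cast_add, ← hTe, hT]
      · rw [if_neg hl] at hc
        omega

/-- The `n`-fold power of a word. -/
def pw (u : List α) (n : ℕ) : List α := (List.replicate n u).flatten

@[simp] theorem pw_zero (u : List α) : pw u 0 = [] := rfl
theorem pw_succ (u : List α) (n : ℕ) : pw u (n + 1) = u ++ pw u n := by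
  simp [pw, List.replicate_succ]

theorem pw_double (u : List α) (n : ℕ) : pw (u ++ u) n = pw u (2 * n) := by
  induction n with
  | zero => rfl
  | succ n ih =>
    rw [pw_succ, ih, show 2 * (n + 1) = 2 * n + 1 + 1 by ring, pw_succ, pw_succ, List.append_assoc]

theorem zRun_pw {z : Bool} {u : List α} (h : zRun m z u = z) (n : ℕ) : zRun m z (pw u n) = z := by
  induction n with
  | zero => rfl
  | succ n ih => rw [pw_succ, zRun_append, h, ih]

theorem disp_pw {z : Bool} {u : List α} (h : zRun m z u = z) (n : ℕ) :
    disp m κ z (pw u n) = n * disp m κ z u := by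
  induction n with
  | zero => simp
  | succ n ih =>
    rw [pw_succ, disp_append, h, ih]
    push_cast
    ring

/-- A loop with nonzero displacement reaches the hub. -/
theorem hits_of_loop (M : ℕ) [NeZero M] (hκ : ∀ a, |κ a| ≤ 1) (z : Bool) (s : ZMod M) (v : List α)
    (hz : zRun m z v = z) (hD : disp m κ z v ≠ 0) :
    ∃ p, p ≠ [] ∧ p <+: pw v M ∧ run (wδ m κ M) (z, s) p = (false, 0) := by
  have hM : 0 < M := Nat.pos_of_ne_zero (NeZero.ne M)
  set S : ℤ := (s.val : ℤ) with hS
  have hSlt : S < M := by
    have := ZMod.val_lt s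
    omega
  have hS0 : 0 ≤ S := Int.natCast_nonneg _
  have hsS : ((S : ℤ) : ZMod M) = s := by
    rw [hS, Int.cast_natCast, ZMod.natCast_zmod_val]
  have hdisp := disp_pw (κ := κ) hz M
  have habs : (M : ℤ) ≤ |(M : ℤ) * disp m κ z v| := by
    rw [abs_mul, abs_of_nonneg (by positivity : (0 : ℤ) ≤ (M : ℤ))]
    have : 1 ≤ |disp m κ z v| := Int.one_le_abs hD
    nlinarith
  rw [← hsS]
  rw [← hdisp] at habs
  rcases le_abs'.1 habs with hneg | hpos
  · -- downward
    by_cases hS00 : S = 0
    · refine crossing M hκ z S (-(M : ℤ)) (by simp) _ (Or.inr ⟨?_, ?_⟩) <;> omega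
    · refine crossing M hκ z S 0 (by simp) _ (Or.inr ⟨?_, ?_⟩) <;> omega
  · refine crossing M hκ z S (M : ℤ) (by simp) _ (Or.inl ⟨?_, ?_⟩) <;> omega

end Walk

section AP

variable {α Q : Type} [DecidableEq Q] {δ : Q → α → Q} {h : Q}

theorem runA_hit {q : Q} {p : List α} (hp : p ≠ []) (hr : run δ q p = h) :
    runA δ h (some q) p = none := by
  induction p generalizing q with
  | nil => exact absurd rfl hp
  | cons a l ih =>
    rw [runA_cons]
    by_cases ha : δ q a = h
    · simp [stepA, ha]
    · simp only [stepA, Option.bind_some, ha, if_false]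
      apply ih
      · rintro rfl
        exact ha (by simpa using hr)
      · simpa using hr

theorem iterate_runA (u : List α) (n : ℕ) (o : Option Q) :
    (fun o => runA δ h o u)^[n] o = runA δ h o (pw u n) := by
  induction n generalizing o with
  | zero => rfl
  | succ n ih =>
    rw [Function.iterate_succ_apply, ih, pw_succ, runA_append]

/-- A criterion for the hub condition. -/
theorem hubAP_of (H : ∀ (u : List α) (q : Q), run δ q u = q ∨
    ∃ n p, p ≠ [] ∧ p <+: pw u n ∧ run δ q p = h) : HubAP δ h := by
  intro u q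
  rcases H u q with h1 | ⟨n, p, hp, ⟨t, ht⟩, hr⟩
  · cases hu : runA δ h (some q) u with
    | none =>
      refine ⟨1, ?_⟩
      simp [hu]
    | some r =>
      have : r = q := by
        have := runA_some hu
        rw [h1] at this
        exact this.symm
      subst this
      refine ⟨0, ?_⟩
      simp [hu]
  · refine ⟨n, ?_⟩
    have hn : (fun o => runA δ h o u)^[n] (some q) = none := by
      rw [iterate_runA, ← ht, runA_append, runA_hit hp hr, runA_none]
    rw [Function.iterate_succ_apply', hn]
    simp

end AP

section WalkAP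

variable {α : Type} {m : α → Bool} {κ : α → ℤ}

/-- The walk automaton satisfies the hub condition. -/
theorem walk_ap (M : ℕ) [NeZero M] (hκ : ∀ a, |κ a| ≤ 1)
    (hH : ∀ u : List α, zRun m false u = true → (u.map κ).sum ≠ 0) :
    HubAP (wδ m κ M) (false, (0 : ZMod M)) := by
  apply hubAP_of
  rintro u ⟨z, s⟩
  cases hf : zRun m false u
  · -- the Boolean coordinate returns
    have hz : zRun m z u = z := by
      rw [zRun_eq_xor, hf]
      simp
    by_cases hD : disp m κ z u = 0
    · left
      rw [run_wδ, hz, hD]
      simp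
    · right
      obtain ⟨p, h1, h2, h3⟩ := hits_of_loop M hκ z s u hz hD
      exact ⟨M, p, h1, h2, h3⟩
  · -- the Boolean coordinate flips
    right
    have hz1 : zRun m z u = !z := by
      rw [zRun_eq_xor, hf]
      simp
    have hz2 : zRun m (!z) u = z := by
      rw [zRun_eq_xor, hf]
      simp
    have hz : zRun m z (u ++ u) = z := by
      rw [zRun_append, hz1, hz2]
    have hD : disp m κ z (u ++ u) ≠ 0 := by
      rw [disp_append, hz1, disp_add_compl]
      exact hH u hf
    obtain ⟨p, h1, h2, h3⟩ := hits_of_loop M hκ z s (u ++ u) hz hD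
    rw [pw_double] at h2
    exact ⟨2 * M, p, h1, h2, h3⟩

/-- Functions to the integers all of whose residues are definable with star height one. -/
def ModDef (g : List α → ℤ) : Prop :=
  ∀ (M : ℕ) [NeZero M] (c : ZMod M), GSH 1 (fun w => ((g w : ℤ) : ZMod M) = c)

theorem walk_modDef [Finite α] (hκ : ∀ a, |κ a| ≤ 1)
    (hH : ∀ u : List α, zRun m false u = true → (u.map κ).sum ≠ 0) :
    ModDef (disp m κ false) := by
  intro M _ c
  haveI : Finite (Bool × ZMod M) := by
    haveI : Fintype (ZMod M) := ZMod.fintype M
    infer_instance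
  have hpiece : ∀ z : Bool, GSH 1 (fun w : List α => run (wδ m κ M) (false, (0 : ZMod M)) w = (z, c)) :=
    fun z => hub_gsh (walk_ap M hκ hH) _ _
  refine (GSH.exists_ hpiece).congr (fun w => ?_)
  rw [run_wδ]
  constructor
  · rintro ⟨z, hz⟩
    have := congrArg Prod.snd hz
    simpa using this
  · intro hw
    refine ⟨zRun m false w, ?_⟩
    simp [hw]

namespace ModDef

variable {g g' : List α → ℤ}

theorem congr (h : ModDef g) (e : ∀ w, g w = g' w) : ModDef g' := by
  intro M _ c
  exact (h M c).congr (fun w => by rw [e])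

theorem add (h : ModDef g) (h' : ModDef g') : ModDef (fun w => g w + g' w) := by
  intro M _ c
  haveI : Finite (ZMod M) := by
    haveI : Fintype (ZMod M) := ZMod.fintype M
    infer_instance
  have hpiece : ∀ r : ZMod M, GSH 1 (fun w : List α =>
      ((g w : ℤ) : ZMod M) = r ∧ ((g' w : ℤ) : ZMod M) = c - r) :=
    fun r => (h M r).and (h' M (c - r))
  refine (GSH.exists_ hpiece).congr (fun w => ?_)
  constructor
  · rintro ⟨r, h1, h2⟩
    rw [Int.cast_add, h1, h2]
    ring
  · intro hw
    refine ⟨_, rfl, ?_⟩
    rw [Int.cast_add] at hw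
    rw [← hw]
    ring

theorem neg (h : ModDef g) : ModDef (fun w => - g w) := by
  intro M _ c
  refine (h M (-c)).congr (fun w => ?_)
  push_cast
  constructor
  · intro h1
    rw [h1]
    ring
  · intro h1
    rw [← h1]
    ring

theorem sub (h : ModDef g) (h' : ModDef g') : ModDef (fun w => g w - g' w) :=
  (h.add h'.neg).congr (fun w => by ring)

theorem const_mul (k : ℤ) (h : ModDef g) : ModDef (fun w => k * g w) := by
  intro M _ c
  haveI : Finite (ZMod M) := by
    haveI : Fintype (ZMod M) := ZMod.fintype M
    infer_instance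
  have hpiece : ∀ r : ZMod M, GSH 1 (fun w : List α =>
      (k : ZMod M) * r = c ∧ ((g w : ℤ) : ZMod M) = r) :=
    fun r => (GSH.const _ 1).and (h M r)
  refine (GSH.exists_ hpiece).congr (fun w => ?_)
  constructor
  · rintro ⟨r, h1, h2⟩
    rw [Int.cast_mul, h2, h1]
  · intro hw
    rw [Int.cast_mul] at hw
    exact ⟨_, hw, rfl⟩

theorem zero : ModDef (fun _ : List α => (0 : ℤ)) := by
  intro M _ c
  exact (GSH.const (((0 : ℤ) : ZMod M) = c) 1)

theorem sum {ι : Type} (s : Finset ι) {f : ι → List α → ℤ} (hf : ∀ i ∈ s, ModDef (f i)) :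
    ModDef (fun w => ∑ i ∈ s, f i w) := by
  classical
  induction s using Finset.induction_on with
  | empty => exact zero.congr (fun w => by simp)
  | insert a s ha ih =>
    refine ((hf a (Finset.mem_insert_self _ _)).add
      (ih (fun i hi => hf i (Finset.mem_insert_of_mem hi)))).congr (fun w => ?_)
    rw [Finset.sum_insert ha]

/-- Division by a nonzero constant. -/
theorem of_const_mul (k : ℕ) (hk : k ≠ 0) (h : ModDef (fun w => (k : ℤ) * g w)) : ModDef g := by
  intro M _ c
  haveI : NeZero (k * M) := ⟨Nat.mul_ne_zero hk (NeZero.ne M)⟩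
  have h1 := h (k * M) ((((k : ℤ) * (c.val : ℤ) : ℤ) : ZMod (k * M)))
  refine h1.congr (fun w => ?_)
  rw [ZMod.intCast_eq_intCast_iff_dvd_sub]
  have hc : c = (((c.val : ℤ) : ℤ) : ZMod M) := by simp
  constructor
  · intro hd
    rw [hc, ZMod.intCast_eq_intCast_iff_dvd_sub]
    have e : (k : ℤ) * (c.val : ℤ) - (k : ℤ) * g w = (k : ℤ) * ((c.val : ℤ) - g w) := by ring
    rw [e] at hd
    push_cast at hd
    exact (mul_dvd_mul_iff_left (by exact_mod_cast hk)).1 hd
  · intro hd
    rw [hc, ZMod.intCast_eq_intCast_iff_dvd_sub] at hd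
    have e : (k : ℤ) * (c.val : ℤ) - (k : ℤ) * g w = (k : ℤ) * ((c.val : ℤ) - g w) := by ring
    rw [e]
    push_cast
    exact mul_dvd_mul_left _ hd

end ModDef

end WalkAP

end Vale.Agent.Lib.P329W
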